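import Vale.Agent.P064.HMain
import Vale.Agent.P064.Attain

/-!
P064, the second Kahn-Kalai conjecture: `p_c(n,H) ≤ C p_E(n,H) log n` for all graphs `H`.
-/

namespace Vale.Agent.Results.P064.KahnKalai

/-- There is a universal constant `C` such that for all `n ≥ 2` and all graphs `H` with at least
one edge and at most `n` vertices, both minima `p_c(n,H)`, `p_E(n,H)` are attained and
`p_c(n,H) ≤ C p_E(n,H) log n`. -/
theorem result : ∃ C : ℝ, 0 < C ∧ ∀ n : ℕ, 2 ≤ n →
    ∀ (V : Type) [Fintype V] (H : SimpleGraph V), Fintype.card V ≤ n → H ≠ ⊥ →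
      IsLeast (_root_.P064.pcSet n H) (_root_.P064.pc n H) ∧
      IsLeast (_root_.P064.pESet n H) (_root_.P064.pE n H) ∧
      _root_.P064.pc n H ≤ C * _root_.P064.pE n H * Real.log n :=
  ⟨39321600, by norm_num, fun _ hn _ _ H hV hH => ⟨_root_.P064.isLeast_pc H hV,
    _root_.P064.isLeast_pE H hV, _root_.P064.pc_le_log hn H hV hH⟩⟩

end Vale.Agent.Results.P064.KahnKalai
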