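import Vale.Agent.P064.Main

/-!
P064, second Kahn-Kalai conjecture: the upper bound `pc ≤ C pE log ^ 2 n` for all graphs.
-/

namespace Vale.Agent.Results.P064.LogSquared

/-- There is a universal constant `C` such that for all `n ≥ 2` and all graphs `H` with at least
one edge and at most `n` vertices, `p_c(n,H) ≤ C p_E(n,H) (log n)^2`. -/
theorem result : ∃ C : ℝ, 0 < C ∧ ∀ n : ℕ, 2 ≤ n →
    ∀ (V : Type) [Fintype V] (H : SimpleGraph V), Fintype.card V ≤ n → H ≠ ⊥ →
      _root_.P064.pc n H ≤ C * _root_.P064.pE n H * Real.log n ^ 2 :=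
  ⟨23040, by norm_num, fun _ hn _ _ H hV hH => _root_.P064.pc_le hn H hV hH⟩

end Vale.Agent.Results.P064.LogSquared
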